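import Vale.Agent.P103.Main

namespace Vale.Agent.Results.P103.Full

open Vale.Agent.P103

/-- Shub's entropy conjecture fails for `C¹` maps: `S¹ × S² × Sⁿ` has a `C¹` self-map with zero
topological entropy whose action on `H₂(M; ℝ)` has the eigenvalue `2`. -/
theorem result : ∃ n : ℕ, Counterexample (model n) (Mfd n) := by
  obtain ⟨r, F, h⟩ := exists_fib
  have : Nonempty (Mfd NN) := ⟨(1, ⟨_, sig_mem 0⟩, north)⟩
  obtain ⟨h1, h2⟩ := entropy_zero h.sep
  exact ⟨NN, ⟨inferInstance, inferInstance, inferInstance, inferInstance, this⟩,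
    ⟨h.map, h.contMDiff.continuous⟩, h.contMDiff,
    tendsto_const_nhds.congr' (eventually_nhdsWithin_of_forall fun ε hε => (h1 ε hε).symm), h2,
    h.eigen⟩

end Vale.Agent.Results.P103.Full
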